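import Mathlib

/-! # One-variable reduction of the slack and of the commutator kernels (SP_0 line)

`t' = exp L`, `L` concave.  Then the slack kernel
`sig(a,b) = (t b - t a)^2 / ((b-a)^2 t' a t' b) - 1` is at least `(L b - L a)^2 / 12`, and every
kernel `f[a,b] - f' a` with `|f''| ≤ C L'` is at most `C |L b - L a|`. -/

noncomputable section

namespace Vale.Agent.P254.SP.H683

open Real Set

/-- `cosh y ≥ 1 + y^2/2 + y^4/24`. -/
theorem cosh_ge (y : ℝ) : 1 + y ^ 2 / 2 + y ^ 4 / 24 ≤ cosh y := by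
  have h := Real.hasSum_cosh y
  have h2 : ∑ n ∈ Finset.range 3, y ^ (2 * n) / ((2 * n).factorial : ℝ) ≤ cosh y := by
    refine sum_le_hasSum _ (fun n _ => ?_) h
    have : 0 ≤ y ^ (2 * n) := by rw [pow_mul]; positivity
    positivity
  have h3 : ∑ n ∈ Finset.range 3, y ^ (2 * n) / ((2 * n).factorial : ℝ)
      = 1 + y ^ 2 / 2 + y ^ 4 / 24 := by
    simp [Finset.sum_range_succ, Nat.factorial]
  linarith

/-- `sinh² x ≥ x² + x⁴/3`. -/
theorem sinh_sq_ge (x : ℝ) : x ^ 2 + x ^ 4 / 3 ≤ sinh x ^ 2 := by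
  have h := cosh_ge (2 * x)
  have h2 : cosh (2 * x) = 2 * sinh x ^ 2 + 1 := by
    rw [Real.cosh_two_mul, Real.cosh_sq]; ring
  nlinarith [h, h2]

/-- log-mean against geometric mean, with its gap. -/
theorem exp_sub_sq_ge (u v : ℝ) :
    (v - u) ^ 2 * (exp u * exp v) * (1 + (v - u) ^ 2 / 12) ≤ (exp v - exp u) ^ 2 := by
  set x := (v - u) / 2 with hx
  set m := (u + v) / 2 with hm
  have hu : u = m - x := by rw [hx, hm]; ring
  have hv : v = m + x := by rw [hx, hm]; ring
  have e1 : exp v - exp u = 2 * exp m * sinh x := by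
    rw [hu, hv, Real.sinh_eq, Real.exp_sub, Real.exp_add, Real.exp_neg]
    field_simp
  have e2 : exp u * exp v = exp m ^ 2 := by
    rw [← Real.exp_add, ← Real.exp_nat_mul, hu, hv]; congr 1; push_cast; ring
  have e3 : v - u = 2 * x := by rw [hx]; ring
  rw [e1, e2, e3]
  have h := sinh_sq_ge x
  have hp : 0 < exp m ^ 2 := by positivity
  nlinarith [mul_le_mul_of_nonneg_left h hp.le]

/-- **Slack.** `t' = exp L`, `L` concave, `a < b`. -/
theorem slack_aux {t L : ℝ → ℝ} (ht : ∀ x, HasDerivAt t (exp (L x)) x)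
    (hL : ConcaveOn ℝ univ L) {a b : ℝ} (hab : a < b) :
    (b - a) ^ 2 * (exp (L a) * exp (L b)) * (1 + (L b - L a) ^ 2 / 12) ≤ (t b - t a) ^ 2 := by
  have hba : 0 < b - a := sub_pos.2 hab
  -- chord inequality
  have chord : ∀ s ∈ Icc a b, L a + (L b - L a) / (b - a) * (s - a) ≤ L s := by
    intro s hs
    have w1 : 0 ≤ (b - s) / (b - a) := div_nonneg (by linarith [hs.2]) hba.le
    have w2 : 0 ≤ (s - a) / (b - a) := div_nonneg (by linarith [hs.1]) hba.le
    have w3 : (b - s) / (b - a) + (s - a) / (b - a) = 1 := by field_simp; ring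
    have h := hL.2 (mem_univ a) (mem_univ b) w1 w2 w3
    simp only [smul_eq_mul] at h
    have e : (b - s) / (b - a) * a + (s - a) / (b - a) * b = s := by
      field_simp; ring
    rw [e] at h
    calc L a + (L b - L a) / (b - a) * (s - a)
        = (b - s) / (b - a) * L a + (s - a) / (b - a) * L b := by field_simp; ring
      _ ≤ L s := h
  by_cases hk : L b = L a
  · -- flat chord
    have h1 : (b - a) * exp (L a) ≤ t b - t a := by
      obtain ⟨c, hc, hcd⟩ := exists_hasDerivAt_eq_slope t (fun x => exp (L x)) hab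
        (fun x _ => (ht x).continuousAt.continuousWithinAt) (fun x _ => ht x)
      have h2 : L a ≤ L c := by
        have := chord c ⟨hc.1.le, hc.2.le⟩
        rw [hk] at this; simpa using this
      have h3 : exp (L a) ≤ exp (L c) := Real.exp_le_exp.2 h2
      have h4 : t b - t a = (b - a) * exp (L c) := by
        rw [hcd]; field_simp
      rw [h4]; exact mul_le_mul_of_nonneg_left h3 hba.le
    rw [hk]
    have h5 : 0 ≤ (b - a) * exp (L a) := by positivity
    nlinarith [mul_self_le_mul_self h5 h1]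
  · set k := (L b - L a) / (b - a) with hkdef
    have hk0 : k ≠ 0 := by
      rw [hkdef]; exact div_ne_zero (sub_ne_zero.2 hk) hba.ne'
    -- comparison function
    have h1 : (exp (L b) - exp (L a)) / k ≤ t b - t a := by
      have hmono : MonotoneOn (fun s => t s - exp (L a + k * (s - a)) / k) (Icc a b) := by
        have hd : ∀ s, HasDerivAt (fun s => t s - exp (L a + k * (s - a)) / k)
            (exp (L s) - exp (L a + k * (s - a))) s := by
          intro s
          have h2 : HasDerivAt (fun s => L a + k * (s - a)) k s := by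
            simpa using (((hasDerivAt_id s).sub_const a).const_mul k).const_add (L a)
          have h3 := (h2.exp).div_const k
          have h4 : exp (L a + k * (s - a)) * k / k = exp (L a + k * (s - a)) := by
            field_simp
          rw [h4] at h3
          exact (ht s).sub h3
        apply monotoneOn_of_deriv_nonneg (convex_Icc a b)
        · exact fun s _ => (hd s).continuousAt.continuousWithinAt
        · exact fun s _ => (hd s).differentiableAt.differentiableWithinAt
        · intro s hs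
          rw [interior_Icc] at hs
          rw [(hd s).deriv]
          have := chord s ⟨hs.1.le, hs.2.le⟩
          have h5 := Real.exp_le_exp.2 this
          linarith
      have h2 := hmono (left_mem_Icc.2 hab.le) (right_mem_Icc.2 hab.le) hab.le
      have h3 : L a + k * (b - a) = L b := by rw [hkdef]; field_simp; ring
      have h4 : L a + k * (a - a) = L a := by ring
      simp only [h3, h4] at h2
      have h5 : (exp (L b) - exp (L a)) / k = exp (L b) / k - exp (L a) / k := sub_div _ _ _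
      linarith
    have h2 : 0 ≤ (exp (L b) - exp (L a)) / k := by
      rcases lt_or_gt_of_ne hk0 with h | h
      · have : L b < L a := by
          have := (div_neg_iff.1 (hkdef ▸ h))
          rcases this with ⟨h1, h2⟩ | ⟨h1, h2⟩
          · linarith
          · linarith
        have := Real.exp_lt_exp.2 this
        exact div_nonneg_of_nonpos (by linarith) h.le
      · have : L a < L b := by
          have := (div_pos_iff.1 (hkdef ▸ h))
          rcases this with ⟨h1, h2⟩ | ⟨h1, h2⟩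
          · linarith
          · linarith
        have := Real.exp_lt_exp.2 this
        exact div_nonneg (by linarith) h.le
    have h3 := mul_self_le_mul_self h2 h1
    have h4 := exp_sub_sq_ge (L a) (L b)
    have hLba : L b - L a ≠ 0 := sub_ne_zero.2 hk
    have h5 : (exp (L b) - exp (L a)) / k * ((exp (L b) - exp (L a)) / k)
        = (b - a) ^ 2 / (L b - L a) ^ 2 * (exp (L b) - exp (L a)) ^ 2 := by
      rw [hkdef]; field_simp
    rw [h5] at h3
    have h6 : 0 ≤ (b - a) ^ 2 / (L b - L a) ^ 2 := by positivity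
    have h7 := mul_le_mul_of_nonneg_left h4 h6
    have h8 : (b - a) ^ 2 / (L b - L a) ^ 2 *
        ((L b - L a) ^ 2 * (exp (L a) * exp (L b)) * (1 + (L b - L a) ^ 2 / 12))
        = (b - a) ^ 2 * (exp (L a) * exp (L b)) * (1 + (L b - L a) ^ 2 / 12) := by
      field_simp
    rw [h8] at h7
    calc _ ≤ _ := h7
      _ ≤ _ := h3
      _ = (t b - t a) ^ 2 := by ring

/-- **Slack**, all `a b`. -/
theorem slack {t L : ℝ → ℝ} (ht : ∀ x, HasDerivAt t (exp (L x)) x)
    (hL : ConcaveOn ℝ univ L) (a b : ℝ) :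
    (b - a) ^ 2 * (exp (L a) * exp (L b)) * (1 + (L b - L a) ^ 2 / 12) ≤ (t b - t a) ^ 2 := by
  rcases lt_trichotomy a b with h | h | h
  · exact slack_aux ht hL h
  · subst h; simp
  · have := slack_aux ht hL h
    nlinarith [this]

/-- Quotient form: `sig(a,b) ≥ (L b - L a)^2/12`. -/
theorem sig_ge {t L : ℝ → ℝ} (ht : ∀ x, HasDerivAt t (exp (L x)) x)
    (hL : ConcaveOn ℝ univ L) {a b : ℝ} (hab : a ≠ b) :
    (L b - L a) ^ 2 / 12 ≤
      ((t b - t a) / (b - a)) ^ 2 / (exp (L a) * exp (L b)) - 1 := by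
  have h := slack ht hL a b
  have h1 : 0 < (b - a) ^ 2 := by
    have : b - a ≠ 0 := sub_ne_zero.2 hab.symm
    positivity
  have h2 : 0 < exp (L a) * exp (L b) := by positivity
  rw [le_sub_iff_add_le, div_pow, div_div, le_div_iff₀ (by positivity)]
  nlinarith [h]

/-- `|p''-type bound|`: if `|q| ≤ C L'` then `|p y - p x| ≤ C |L y - L x|`. -/
theorem abs_sub_le_L {p q L L' : ℝ → ℝ} {C : ℝ} (hp : ∀ x, HasDerivAt p (q x) x)
    (hL : ∀ x, HasDerivAt L (L' x) x) (hb : ∀ x, |q x| ≤ C * L' x) {x y : ℝ} (hxy : x ≤ y) :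
    |p y - p x| ≤ C * (L y - L x) := by
  have m1 : Monotone fun s => C * L s - p s := by
    apply monotone_of_deriv_nonneg
    · exact fun s => (((hL s).const_mul C).sub (hp s)).differentiableAt
    · intro s
      have hd : HasDerivAt (fun s => C * L s - p s) (C * L' s - q s) s :=
        ((hL s).const_mul C).sub (hp s)
      rw [hd.deriv]
      have := (abs_le.1 (hb s)).2; linarith
  have m2 : Monotone fun s => C * L s + p s := by
    apply monotone_of_deriv_nonneg
    · exact fun s => (((hL s).const_mul C).add (hp s)).differentiableAt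
    · intro s
      have hd : HasDerivAt (fun s => C * L s + p s) (C * L' s + q s) s :=
        ((hL s).const_mul C).add (hp s)
      rw [hd.deriv]
      have := (abs_le.1 (hb s)).1; linarith
  have h1 := m1 hxy
  have h2 := m2 hxy
  simp only at h1 h2
  rw [abs_le]; constructor <;> nlinarith

/-- **Kernel lemma**: `f' = p`, `p' = q`, `|q| ≤ C L'`, `L' ≥ 0`, then
`|f[a,b] - f' a| ≤ C |L b - L a|`. -/
theorem kernel_le {f p q L L' : ℝ → ℝ} {C : ℝ} (hf : ∀ x, HasDerivAt f (p x) x)
    (hp : ∀ x, HasDerivAt p (q x) x) (hL : ∀ x, HasDerivAt L (L' x) x)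
    (hL0 : ∀ x, 0 ≤ L' x) (hC : 0 ≤ C) (hb : ∀ x, |q x| ≤ C * L' x) {a b : ℝ} (hab : a ≠ b) :
    |(f b - f a) / (b - a) - p a| ≤ C * |L b - L a| := by
  have hLm : Monotone L := by
    apply monotone_of_deriv_nonneg
    · exact fun s => (hL s).differentiableAt
    · intro s; rw [(hL s).deriv]; exact hL0 s
  rcases lt_or_gt_of_ne hab with h | h
  · obtain ⟨c, hc, hcd⟩ := exists_hasDerivAt_eq_slope f p h
      (fun x _ => (hf x).continuousAt.continuousWithinAt) (fun x _ => hf x)
    rw [← hcd]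
    have h1 := abs_sub_le_L hp hL hb hc.1.le
    have h2 : L c ≤ L b := hLm hc.2.le
    have h3 : L a ≤ L b := hLm h.le
    rw [abs_of_nonneg (sub_nonneg.2 h3)]
    nlinarith
  · obtain ⟨c, hc, hcd⟩ := exists_hasDerivAt_eq_slope f p h
      (fun x _ => (hf x).continuousAt.continuousWithinAt) (fun x _ => hf x)
    have e : (f b - f a) / (b - a) = (f a - f b) / (a - b) := by
      rw [← neg_sub (f a) (f b), ← neg_sub a b, neg_div_neg_eq]
    rw [e, ← hcd, abs_sub_comm]
    have h1 := abs_sub_le_L hp hL hb hc.2.le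
    have h2 : L b ≤ L c := hLm hc.1.le
    have h3 : L b ≤ L a := hLm h.le
    rw [abs_sub_comm (L b), abs_of_nonneg (sub_nonneg.2 h3)]
    nlinarith

/-- slope between the end derivatives, `f' = p` monotone. -/
theorem slope_mem {f p : ℝ → ℝ} (hf : ∀ x, HasDerivAt f (p x) x) (hp : Monotone p)
    {a b : ℝ} (h : a < b) : p a ≤ (f b - f a) / (b - a) ∧ (f b - f a) / (b - a) ≤ p b := by
  obtain ⟨c, hc, hcd⟩ := exists_hasDerivAt_eq_slope f p h
    (fun x _ => (hf x).continuousAt.continuousWithinAt) (fun x _ => hf x)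
  rw [← hcd]
  exact ⟨hp hc.1.le, hp hc.2.le⟩

/-- The linear commutator kernel of the (SP_0) line (`e` at the index `j`):
`κ(a,b) = θ[a,b] - θ' b - (r[a,b]^2 - (r' b)^2) + (r' a - r[a,b])^2`.
Only `0 ≤ r' ≤ 1/2`, `0 ≤ r'' ≤ θ'' ≤ C L'` is used. -/
theorem kappa_le {r r1 r2 th th1 th2 L L' : ℝ → ℝ} {C : ℝ}
    (hr : ∀ x, HasDerivAt r (r1 x) x) (hr1 : ∀ x, HasDerivAt r1 (r2 x) x)
    (hth : ∀ x, HasDerivAt th (th1 x) x) (hth1 : ∀ x, HasDerivAt th1 (th2 x) x)
    (hL : ∀ x, HasDerivAt L (L' x) x) (hL0 : ∀ x, 0 ≤ L' x)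
    (h0 : ∀ x, 0 ≤ r1 x) (h1 : ∀ x, r1 x ≤ 1 / 2)
    (h2 : ∀ x, 0 ≤ r2 x) (h3 : ∀ x, r2 x ≤ th2 x) (h4 : ∀ x, th2 x ≤ C * L' x)
    {a b : ℝ} (hab : a ≠ b) :
    |(th b - th a) / (b - a) - th1 b - (((r b - r a) / (b - a)) ^ 2 - r1 b ^ 2)
      + (r1 a - (r b - r a) / (b - a)) ^ 2| ≤ C * |L b - L a| := by
  have mr : Monotone r1 := monotone_of_deriv_nonneg (fun s => (hr1 s).differentiableAt)
    (fun s => by rw [(hr1 s).deriv]; exact h2 s)
  have mth : Monotone th1 := monotone_of_deriv_nonneg (fun s => (hth1 s).differentiableAt)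
    (fun s => by rw [(hth1 s).deriv]; exact (h2 s).trans (h3 s))
  have mL : Monotone L := monotone_of_deriv_nonneg (fun s => (hL s).differentiableAt)
    (fun s => by rw [(hL s).deriv]; exact hL0 s)
  have hps : ∀ x, HasDerivAt (fun x => th x - r x) (th1 x - r1 x) x :=
    fun x => (hth x).sub (hr x)
  have hps1 : ∀ x, HasDerivAt (fun x => th1 x - r1 x) (th2 x - r2 x) x :=
    fun x => (hth1 x).sub (hr1 x)
  have mps : Monotone fun x => th1 x - r1 x :=
    monotone_of_deriv_nonneg (fun s => (hps1 s).differentiableAt)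
      (fun s => by rw [(hps1 s).deriv]; linarith [h3 s])
  have hb : ∀ x, |th2 x| ≤ C * L' x := fun x => by
    rw [abs_of_nonneg ((h2 x).trans (h3 x))]; exact h4 x
  have a0 := h0 a; have a1 := h1 a; have b0 := h0 b; have b1 := h1 b
  rcases lt_or_gt_of_ne hab with h | h
  · -- `a < b`: `b` is the larger one
    obtain ⟨ρ, hρ⟩ : ∃ ρ, ρ = (r b - r a) / (b - a) := ⟨_, rfl⟩
    obtain ⟨θ, hθ⟩ : ∃ θ, θ = (th b - th a) / (b - a) := ⟨_, rfl⟩
    have e := slope_mem hr mr h
    have e2 := slope_mem hth mth h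
    have e3 := slope_mem hps mps h
    have e4 : ((th b - r b) - (th a - r a)) / (b - a) = θ - ρ := by
      rw [hρ, hθ]; ring
    simp only [e4] at e3
    rw [← hρ] at e ⊢
    rw [← hθ] at e2 ⊢
    have hc := abs_sub_le_L hth1 hL hb h.le
    have hk1 : th1 b - th1 a ≤ C * (L b - L a) := (le_abs_self _).trans hc
    rw [abs_of_nonneg (sub_nonneg.2 (mL h.le)), abs_le]
    have f1 : 0 ≤ ρ - r1 a := by linarith [e.1]
    have f2 : 0 ≤ r1 b - ρ := by linarith [e.2]
    have f3 : 0 ≤ θ - th1 a := by linarith [e2.1]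
    have f4 : 0 ≤ th1 b - θ := by linarith [e2.2]
    have f5 : r1 b - ρ ≤ th1 b - θ := by linarith [e3.2]
    have f6 : ρ - r1 a ≤ θ - th1 a := by linarith [e3.1]
    -- `κ = -(θ'b - θ) + (r'b - ρ)(r'b + ρ) + (ρ - r'a)^2`
    have g1 : 0 ≤ (r1 b - ρ) * (r1 b + ρ) := mul_nonneg f2 (by linarith)
    have g2 : (r1 b - ρ) * (r1 b + ρ) ≤ r1 b - ρ := by nlinarith
    have g3 : (ρ - r1 a) ^ 2 ≤ ρ - r1 a := by nlinarith
    constructor
    · nlinarith [sq_nonneg (ρ - r1 a)]
    · nlinarith
  · -- `b < a`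
    obtain ⟨ρ, hρ⟩ : ∃ ρ, ρ = (r b - r a) / (b - a) := ⟨_, rfl⟩
    obtain ⟨θ, hθ⟩ : ∃ θ, θ = (th b - th a) / (b - a) := ⟨_, rfl⟩
    have s1 : ∀ f : ℝ → ℝ, (f b - f a) / (b - a) = (f a - f b) / (a - b) := fun f => by
      rw [← neg_sub (f a) (f b), ← neg_sub a b, neg_div_neg_eq]
    have e := slope_mem hr mr h
    have e2 := slope_mem hth mth h
    have e3 := slope_mem hps mps h
    rw [← s1 r, ← hρ] at e
    rw [← s1 th, ← hθ] at e2
    have e4 : ((th a - r a) - (th b - r b)) / (a - b) = θ - ρ := by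
      rw [hρ, hθ, s1 r, s1 th]; ring
    simp only [e4] at e3
    rw [← hρ, ← hθ]
    have hc := abs_sub_le_L hth1 hL hb h.le
    have hk1 : th1 a - th1 b ≤ C * (L a - L b) := (le_abs_self _).trans hc
    rw [abs_sub_comm (L b), abs_of_nonneg (sub_nonneg.2 (mL h.le)), abs_le]
    have f1 : 0 ≤ ρ - r1 b := by linarith [e.1]
    have f2 : 0 ≤ r1 a - ρ := by linarith [e.2]
    have f4 : 0 ≤ th1 a - θ := by linarith [e2.2]
    have f5 : r1 a - ρ ≤ th1 a - θ := by linarith [e3.2]
    have f6 : ρ - r1 b ≤ θ - th1 b := by linarith [e3.1]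
    have g1 : 0 ≤ (ρ - r1 b) * (r1 b + ρ) := mul_nonneg f1 (by linarith)
    have g2 : (ρ - r1 b) * (r1 b + ρ) ≤ ρ - r1 b := by nlinarith
    have g3 : (r1 a - ρ) ^ 2 ≤ r1 a - ρ := by nlinarith
    constructor
    · nlinarith [sq_nonneg (r1 a - ρ)]
    · nlinarith

end Vale.Agent.P254.SP.H683
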